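import Vale.Agent.Lib.P048.Main

namespace Vale.Agent.Lib.P048H

open Finset Vale.Agent.Lib.P048

variable {V : Type*}

/-- An outside path joining positions at distance equal to its number of vertices
gives a cycle one longer than the given cycle. -/
lemma forbid {G : SimpleGraph V} {b : ℕ} {u : ZMod b → V} {D : Finset V} (S : Setup G u D)
    (W : List V) (hne : W ≠ []) (hch : W.IsChain G.Adj) (hnd : W.Nodup) (hD : ∀ y ∈ W, y ∈ D)
    (p : ZMod b) (hh : ∀ y ∈ W.head?, G.Adj (u p) y)
    (hl : ∀ y ∈ W.getLast?, G.Adj y (u (p + (W.length : ZMod b))))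
    (hlen : W.length ≤ b) : False := by
  have hb := S.hb
  have hs1 : 1 ≤ W.length := List.length_pos_iff.2 hne
  have hcyc := surgery u S.inj S.adj p hs1 hlen W hne hch hnd
    (fun y hy i => S.disj y (hD y hy) i) hh hl (by omega)
  refine S.no _ hcyc ?_ ?_
  · simp only [List.length_append, length_arc]
    omega
  · intro x hx
    rcases vertices_surgery u hx with h | h
    · exact Or.inl h
    · exact Or.inr (hD x h)

/-- Greedy selection with priority. -/
lemma pick {α : Type*} [DecidableEq α] (f : α → ℕ) (conf : α → α → Prop)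
    (hsymm : ∀ x y, conf x y → conf y x) (hirr : ∀ x, ¬ conf x x) (W : Finset α) :
    ∃ B ⊆ W, (∀ x ∈ B, ∀ y ∈ B, ¬ conf x y) ∧
      ∀ x ∈ W, x ∉ B → ∃ m ∈ B, conf x m ∧ f x ≤ f m := by
  classical
  induction W using Finset.strongInduction with
  | H W ih =>
    rcases W.eq_empty_or_nonempty with rfl | hne
    · exact ⟨∅, by simp, by simp, by simp⟩
    · obtain ⟨x, hx, hmax⟩ := W.exists_max_image f hne
      set W' := W.filter (fun y => y ≠ x ∧ ¬ conf y x) with hW'
      have hss : W' ⊂ W := by
        refine Finset.ssubset_iff_subset_ne.2 ⟨Finset.filter_subset _ _, ?_⟩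
        intro h
        have : x ∈ W' := h ▸ hx
        exact (Finset.mem_filter.1 this).2.1 rfl
      obtain ⟨B, hB, h1, h2⟩ := ih W' hss
      refine ⟨insert x B, ?_, ?_, ?_⟩
      · intro y hy
        rcases Finset.mem_insert.1 hy with rfl | hy
        · exact hx
        · exact (Finset.mem_filter.1 (hB hy)).1
      · intro y hy z hz
        rcases Finset.mem_insert.1 hy with hy1 | hy1 <;>
          rcases Finset.mem_insert.1 hz with hz1 | hz1
        · rw [hy1, hz1]
          exact hirr _
        · rw [hy1]
          intro h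
          exact (Finset.mem_filter.1 (hB hz1)).2.2 (hsymm _ _ h)
        · rw [hz1]
          exact (Finset.mem_filter.1 (hB hy1)).2.2
        · exact h1 y hy1 z hz1
      · intro z hz hznot
        by_cases hc : conf z x
        · exact ⟨x, Finset.mem_insert_self _ _, hc, hmax z hz⟩
        · have hzx : z ≠ x := by
            rintro rfl
            exact hznot (Finset.mem_insert_self _ _)
          have hz' : z ∈ W' := Finset.mem_filter.2 ⟨hz, hzx, hc⟩
          have hzB : z ∉ B := fun h => hznot (Finset.mem_insert_of_mem h)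
          obtain ⟨m, hm, hc2, hf⟩ := h2 z hz' hzB
          exact ⟨m, Finset.mem_insert_of_mem hm, hc2, hf⟩

/-- What one round of the greedy colouring guarantees. -/
structure Round {α : Type*} (b : ℕ) (XX : Finset α) (f : α → ℕ) (conf : α → α → Prop)
    (A : ℕ → Finset α) (t : ℕ) : Prop where
  sub : A t ⊆ XX
  rel : ∀ x ∈ A t, f x ≤ t
  fresh : ∀ x ∈ A t, ∀ s < t, x ∉ A s
  proper : ∀ x ∈ A t, ∀ s ≤ t, (s : ZMod b) = (t : ZMod b) → ∀ m ∈ A s, ¬ conf x m
  maxi : ∀ x ∈ XX, f x ≤ t → (∀ s ≤ t, x ∉ A s) →
    ∃ s ≤ t, (s : ZMod b) = (t : ZMod b) ∧ ∃ m ∈ A s, conf x m ∧ (s = t → f x ≤ f m)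

lemma exists_rounds {α : Type*} [DecidableEq α] (b : ℕ) (XX : Finset α) (f : α → ℕ)
    (conf : α → α → Prop) (hsymm : ∀ x y, conf x y → conf y x) (hirr : ∀ x, ¬ conf x x) (T : ℕ) :
    ∃ A : ℕ → Finset α, ∀ t < T, Round b XX f conf A t := by
  classical
  induction T with
  | zero => exact ⟨fun _ => ∅, by simp⟩
  | succ T ih =>
    obtain ⟨A, hA⟩ := ih
    set blocked : α → Prop :=
      fun x => ∃ s < T, (s : ZMod b) = (T : ZMod b) ∧ ∃ m ∈ A s, conf x m with hblocked
    set W := XX.filter (fun x => f x ≤ T ∧ (∀ s < T, x ∉ A s) ∧ ¬ blocked x) with hW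
    obtain ⟨B, hB, h1, h2⟩ := pick f conf hsymm hirr W
    set A' : ℕ → Finset α := Function.update A T B with hA'
    have hA'T : A' T = B := by simp [hA']
    have hA'lt : ∀ s, s < T → A' s = A s := by
      intro s hs
      simp [hA', Function.update_of_ne (Nat.ne_of_lt hs)]
    refine ⟨A', ?_⟩
    intro t ht
    rcases Nat.lt_succ_iff_lt_or_eq.1 ht with ht | ht'
    · have hR := hA t ht
      refine ⟨?_, ?_, ?_, ?_, ?_⟩
      · rw [hA'lt t ht]
        exact hR.sub
      · rw [hA'lt t ht]
        exact hR.rel
      · intro x hx s hs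
        rw [hA'lt t ht] at hx
        rw [hA'lt s (by omega)]
        exact hR.fresh x hx s hs
      · intro x hx s hs hst m hm
        rw [hA'lt t ht] at hx
        rw [hA'lt s (by omega)] at hm
        exact hR.proper x hx s hs hst m hm
      · intro x hx hfx hnot
        have hnot' : ∀ s ≤ t, x ∉ A s := by
          intro s hs
          rw [← hA'lt s (by omega)]
          exact hnot s hs
        obtain ⟨s, hs, hst, m, hm, hc, hp⟩ := hR.maxi x hx hfx hnot'
        exact ⟨s, hs, hst, m, by rw [hA'lt s (by omega)]; exact hm, hc, hp⟩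
    · have ht2 : T = t := ht'.symm
      subst ht2
      refine ⟨?_, ?_, ?_, ?_, ?_⟩
      · rw [hA'T]
        exact hB.trans (Finset.filter_subset _ _)
      · rw [hA'T]
        intro x hx
        exact (Finset.mem_filter.1 (hB hx)).2.1
      · rw [hA'T]
        intro x hx s hs
        rw [hA'lt s hs]
        exact (Finset.mem_filter.1 (hB hx)).2.2.1 s hs
      · rw [hA'T]
        intro x hx s hs hst m hm
        rcases Nat.lt_or_eq_of_le hs with hs | rfl
        · rw [hA'lt s hs] at hm
          intro hc
          exact (Finset.mem_filter.1 (hB hx)).2.2.2 ⟨s, hs, hst, m, hm, hc⟩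
        · rw [hA'T] at hm
          exact h1 x hx m hm
      · intro x hx hfx hnot
        have hnotlt : ∀ s < T, x ∉ A s := by
          intro s hs
          rw [← hA'lt s hs]
          exact hnot s hs.le
        have hnotB : x ∉ B := by
          rw [← hA'T]
          exact hnot T le_rfl
        by_cases hbl : blocked x
        · obtain ⟨s, hs, hst, m, hm, hc⟩ := hbl
          exact ⟨s, hs.le, hst, m, by rw [hA'lt s hs]; exact hm, hc, fun h => absurd h hs.ne⟩
        · have hxW : x ∈ W := Finset.mem_filter.2 ⟨hx, hfx, hnotlt, hbl⟩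
          obtain ⟨m, hm, hc, hf⟩ := h2 x hxW hnotB
          exact ⟨T, le_rfl, rfl, m, by rw [hA'T]; exact hm, hc, fun _ => hf⟩

lemma mem_cases {W : List V} {v : V} (h : W.getLast? = some v) {z : V} (hz : z ∈ W) :
    z ∈ W.dropLast ∨ z = v := by
  have hne : W ≠ [] := by
    rintro rfl
    simp at h
  have hlast : W.getLast hne = v := by
    rw [List.getLast?_eq_some_getLast hne] at h
    simpa using h
  have h2 := List.dropLast_append_getLast hne
  rw [← h2] at hz
  rcases List.mem_append.1 hz with h3 | h3
  · exact Or.inl h3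
  · refine Or.inr ?_
    have : z = W.getLast hne := by simpa using h3
    rw [this, hlast]

section main

variable {G : SimpleGraph V} {b : ℕ} {u : ZMod b → V} {D : Finset V}

/-- Two incidences conflict when they are different and use equal or adjacent vertices. -/
def Conf (G : SimpleGraph V) (x m : V × ZMod b) : Prop :=
  x ≠ m ∧ (x.1 = m.1 ∨ G.Adj x.1 m.1)

lemma conf_symm (x m : V × ZMod b) (h : Conf G x m) : Conf G m x := by
  refine ⟨h.1.symm, ?_⟩
  rcases h.2 with h | h
  · exact Or.inl h.symm
  · exact Or.inr h.symm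

lemma conf_irr (x : V × ZMod b) : ¬ Conf G x x := fun h => h.1 rfl

open Classical in
/-- All incidences between the cycle and the outside set. -/
noncomputable def Inc (G : SimpleGraph V) (u : ZMod b → V) (D : Finset V) [NeZero b] :
    Finset (V × ZMod b) :=
  (D ×ˢ (Finset.univ : Finset (ZMod b))).filter (fun p => G.Adj (u p.2) p.1)

lemma mem_Inc [NeZero b] {x : V × ZMod b} :
    x ∈ Inc G u D ↔ x.1 ∈ D ∧ G.Adj (u x.2) x.1 := by
  classical
  simp [Inc, Finset.mem_filter, Finset.mem_product]

/-- A path reaching `y` whose value is `t + 1`, all its earlier vertices having been coloured. -/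
def Reach (G : SimpleGraph V) (u : ZMod b → V) (D : Finset V) (A : ℕ → Finset (V × ZMod b))
    (t q : ℕ) (y : V) : Prop :=
  ∃ (W : List V) (p : ℕ), W ≠ [] ∧ W.IsChain G.Adj ∧ W.Nodup ∧ (∀ z ∈ W, z ∈ D) ∧
    W.getLast? = some y ∧ (∀ z ∈ W.head?, G.Adj (u (p : ZMod b)) z) ∧ q ≤ p ∧
    W.length + p = t + 1 ∧
    ∀ z ∈ W.dropLast, ∃ l, q ≤ l ∧ l < t ∧ ∃ s < t, (z, (l : ZMod b)) ∈ A s

theorem claim [NeZero b] (S : Setup G u D) (A : ℕ → Finset (V × ZMod b)) (T : ℕ)
    (hA : ∀ t < T, Round b (Inc G u D) (fun x => x.2.val) (Conf G) A t) :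
    ∀ t, t < T → ∀ x ∈ Inc G u D, x.2.val ≤ t → (∀ s < t, x ∉ A s) →
      Reach G u D A t x.2.val x.1 ∧ t + 2 ≤ x.2.val + b := by
  intro t
  induction t using Nat.strong_induction_on with
  | _ t ih =>
    intro ht x hx hq hfresh
    have hb := S.hb
    obtain ⟨hxD, hxadj⟩ := mem_Inc.1 hx
    have hqlt : x.2.val < b := ZMod.val_lt x.2
    have hqcast : ((x.2.val : ℕ) : ZMod b) = x.2 := ZMod.natCast_zmod_val x.2
    -- the path
    have hreach : Reach G u D A t x.2.val x.1 := by
      rcases Nat.eq_or_lt_of_le hq with heq | hlt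
      · refine ⟨[x.1], x.2.val, by simp, by simp, by simp, ?_, by simp, ?_, le_rfl, ?_, by simp⟩
        · intro z hz
          have : z = x.1 := by simpa using hz
          rw [this]
          exact hxD
        · intro z hz
          have : z = x.1 := by simpa using hz.symm
          rw [this, hqcast]
          exact hxadj
        · simp only [List.length_singleton]
          omega
      · set t0 := t - 1 with ht0
        have ht0t : t0 < t := by omega
        have hqt0 : x.2.val ≤ t0 := by omega
        have hw0 := (ih t0 ht0t (by omega) x hx hqt0 (fun s hs => hfresh s (by omega))).2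
        obtain ⟨s, hs, hsmod, m, hm, hconf, hprio⟩ :=
          (hA t0 (by omega)).maxi x hx hqt0 (fun s hs => hfresh s (by omega))
        have hRs := hA s (by omega)
        have hmInc : m ∈ Inc G u D := hRs.sub hm
        have hmrel : m.2.val ≤ s := hRs.rel m hm
        obtain ⟨⟨Wm, pm, hne, hch, hnd, hDm, hlast, hhead, hqm, hlen, hold⟩, -⟩ :=
          ih s (by omega) (by omega) m hmInc hmrel (hRs.fresh m hm)
        set δ := t0 - s with hδdef
        have hsδ : s + δ = t0 := by omega
        have hδ0 : ((δ : ℕ) : ZMod b) = 0 := by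
          have h1 : ((s + δ : ℕ) : ZMod b) = (t0 : ZMod b) := by rw [hsδ]
          rw [Nat.cast_add, ← hsmod] at h1
          have h2 : (s : ZMod b) + (δ : ZMod b) = (s : ZMod b) + 0 := by rw [h1, add_zero]
          exact add_left_cancel h2
        have hcastδ : ∀ l : ℕ, ((l + δ : ℕ) : ZMod b) = (l : ZMod b) := by
          intro l
          rw [Nat.cast_add, hδ0, add_zero]
        have hΛ : x.2.val ≤ m.2.val + δ := by
          rcases Nat.lt_or_eq_of_le hs with hslt | hseq
          · have hδpos : 0 < δ := by omega
            have hdvd : b ∣ δ := (ZMod.natCast_eq_zero_iff δ b).1 hδ0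
            have := Nat.le_of_dvd hδpos hdvd
            omega
          · have := hprio hseq
            exact le_trans this (Nat.le_add_right _ _)
        have hΛle : m.2.val + δ ≤ t0 := by omega
        have hmcast : ((m.2.val + δ : ℕ) : ZMod b) = m.2 := by
          rw [hcastδ, ZMod.natCast_zmod_val]
        -- no return to `x.1`
        have hnoret : ∀ l, x.2.val ≤ l → l ≤ t0 → ∀ s', s' ≤ t0 → (x.1, (l : ZMod b)) ∈ A s' →
            False := by
          intro l hl1 hl2 s' hs' hmem
          rcases Nat.eq_or_lt_of_le hl1 with hl | hl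
          · have : (x.1, (l : ZMod b)) = x := by
              rw [← hl, hqcast]
            rw [this] at hmem
            exact hfresh s' (by omega) hmem
          · have hl0 : 1 ≤ l := by omega
            obtain ⟨⟨W', p', hne', hch', hnd', hD', hlast', hhead', hq', hlen', -⟩, -⟩ :=
              ih (l - 1) (by omega) (by omega) x hx (by omega) (fun s hs => hfresh s (by omega))
            have hmI : (x.1, (l : ZMod b)) ∈ Inc G u D := (hA s' (by omega)).sub hmem
            have hadj : G.Adj (u (l : ZMod b)) x.1 := (mem_Inc.1 hmI).2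
            refine forbid S W' hne' hch' hnd' hD' (p' : ZMod b) hhead' ?_ (by omega)
            intro z hz
            rw [hlast'] at hz
            have hz' : z = x.1 := by simpa using hz.symm
            rw [hz']
            have hcast : ((p' : ℕ) : ZMod b) + ((W'.length : ℕ) : ZMod b) = (l : ZMod b) := by
              rw [← Nat.cast_add]
              congr 1
              omega
            rw [hcast]
            exact hadj.symm
        -- the conflict is an edge
        have hvy : m.1 ≠ x.1 := by
          intro h
          apply hnoret (m.2.val + δ) hΛ hΛle s hs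
          rw [hmcast, ← h]
          exact hm
        have hadj : G.Adj x.1 m.1 := by
          rcases hconf.2 with h | h
          · exact absurd h.symm hvy
          · exact h
        -- `x.1` is not on the old path
        have hynot : x.1 ∉ Wm := by
          intro hmem
          rcases mem_cases hlast hmem with h | h
          · obtain ⟨l, hl1, hl2, s', hs', hmem'⟩ := hold _ h
            apply hnoret (l + δ) (by omega) (by omega) s' (by omega)
            rw [hcastδ]
            exact hmem'
          · exact hvy h.symm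
        have hheadnew : ((Wm ++ [x.1]).head? = Wm.head?) := by
          rw [List.head?_append_of_ne_nil _ hne]
        refine ⟨Wm ++ [x.1], pm + δ, by simp, ?_, ?_, ?_, ?_, ?_, ?_, ?_, ?_⟩
        · rw [List.isChain_append]
          refine ⟨hch, by simp, ?_⟩
          intro c hc e he
          rw [hlast] at hc
          have h1 : c = m.1 := by simpa using hc.symm
          have h2 : e = x.1 := by simpa using he.symm
          rw [h1, h2]
          exact hadj.symm
        · rw [List.nodup_append]
          refine ⟨hnd, by simp, ?_⟩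
          intro c hc e he hce
          have h2 : e = x.1 := by simpa using he
          rw [h2] at hce
          exact hynot (hce ▸ hc)
        · intro z hz
          rcases List.mem_append.1 hz with h | h
          · exact hDm z h
          · have : z = x.1 := by simpa using h
            rw [this]
            exact hxD
        · rw [List.getLast?_append]
          simp
        · rw [hheadnew, hcastδ]
          exact hhead
        · omega
        · simp only [List.length_append, List.length_singleton]
          omega
        · rw [List.dropLast_concat]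
          intro z hz
          rcases mem_cases hlast hz with h | h
          · obtain ⟨l, hl1, hl2, s', hs', hmem'⟩ := hold _ h
            refine ⟨l + δ, by omega, by omega, s', by omega, ?_⟩
            rw [hcastδ]
            exact hmem'
          · refine ⟨m.2.val + δ, hΛ, by omega, s, by omega, ?_⟩
            rw [hmcast, h]
            exact hm
    refine ⟨hreach, ?_⟩
    -- the window
    rcases Nat.eq_or_lt_of_le hq with heq | hlt
    · omega
    · by_contra hcon
      have hw0 := (ih (t - 1) (by omega) (by omega) x hx (by omega)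
        (fun s hs => hfresh s (by omega))).2
      obtain ⟨W, p, hne, hch, hnd, hDW, hlast, hhead, hqp, hlen, -⟩ := hreach
      refine forbid S W hne hch hnd hDW (p : ZMod b) hhead ?_ (by omega)
      intro z hz
      rw [hlast] at hz
      have hz' : z = x.1 := by simpa using hz.symm
      rw [hz']
      have hcast : ((p : ℕ) : ZMod b) + ((W.length : ℕ) : ZMod b) = x.2 := by
        rw [← Nat.cast_add]
        have : p + W.length = x.2.val + b := by omega
        rw [this, Nat.cast_add, ZMod.natCast_self, add_zero, hqcast]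
      rw [hcast]
      exact hxadj.symm

/-- The key bound: `e(C, D) ≤ (a - 1) b`. -/
theorem edge_bound [NeZero b] (S : Setup G u D) (a : ℕ)
    (hα : ∀ I : Finset V, (∀ y ∈ I, y ∈ D ∨ ∃ i, y = u i) → G.IsIndepSet (I : Set V) →
      I.card ≤ a) :
    ∑ q : ZMod b, (RR G u D q).card + b ≤ a * b := by
  classical
  have hb := S.hb
  obtain ⟨A, hA⟩ := exists_rounds b (Inc G u D) (fun x => x.2.val) (Conf G) conf_symm conf_irr
    (2 * b)
  have hcl := claim S A (2 * b) hA
  -- everything is coloured
  have hall : ∀ x ∈ Inc G u D, ∃ s, s < 2 * b ∧ x ∈ A s := by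
    intro x hx
    by_contra hcon
    push Not at hcon
    have hqlt : x.2.val < b := ZMod.val_lt x.2
    have := (hcl (x.2.val + b - 1) (by omega) x hx (by omega) (fun s hs => hcon s (by omega))).2
    omega
  choose! col hcol1 hcol2 using hall
  set Cl : ZMod b → Finset (V × ZMod b) :=
    fun j => (Inc G u D).filter (fun x => ((col x : ℕ) : ZMod b) = j) with hCl
  have hcardInc : (Inc G u D).card = ∑ j : ZMod b, (Cl j).card :=
    Finset.card_eq_sum_card_fiberwise (f := fun x => ((col x : ℕ) : ZMod b))
      (t := Finset.univ) (fun x _ => Finset.mem_coe.2 (Finset.mem_univ _))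
  have hcardRR : (Inc G u D).card = ∑ q : ZMod b, (RR G u D q).card := by
    rw [Finset.card_eq_sum_card_fiberwise (f := fun x : V × ZMod b => x.2)
      (t := Finset.univ) (fun x _ => Finset.mem_coe.2 (Finset.mem_univ _))]
    apply Finset.sum_congr rfl
    intro q _
    apply Finset.card_bij (fun x _ => x.1)
    · intro x hx
      obtain ⟨h1, h2⟩ := Finset.mem_filter.1 hx
      obtain ⟨h3, h4⟩ := mem_Inc.1 h1
      exact mem_RR.2 ⟨h3, h2 ▸ h4⟩
    · intro x hx x' hx' h
      have h2 := (Finset.mem_filter.1 hx).2
      have h2' := (Finset.mem_filter.1 hx').2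
      exact Prod.ext h (h2.trans h2'.symm)
    · intro y hy
      obtain ⟨h3, h4⟩ := mem_RR.1 hy
      exact ⟨(y, q), Finset.mem_filter.2 ⟨mem_Inc.2 ⟨h3, h4⟩, rfl⟩, rfl⟩
  -- each class is small
  have hclass : ∀ j : ZMod b, (Cl j).card + 1 ≤ a := by
    intro j
    have hmemCl : ∀ x ∈ Cl j, x ∈ Inc G u D ∧ ((col x : ℕ) : ZMod b) = j := by
      intro x hx
      exact Finset.mem_filter.1 hx
    have hkey : ∀ x ∈ Cl j, ∀ x' ∈ Cl j, col x ≤ col x' → x' ≠ x →
        x'.1 ≠ x.1 ∧ ¬ G.Adj x'.1 x.1 := by
      intro x hx x' hx' hle hne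
      obtain ⟨h1, h2⟩ := hmemCl x hx
      obtain ⟨h1', h2'⟩ := hmemCl x' hx'
      have := (hA (col x') (hcol1 x' h1')).proper x' (hcol2 x' h1') (col x) hle
        (h2.trans h2'.symm) x (hcol2 x h1)
      constructor
      · intro h
        exact this ⟨hne, Or.inl h⟩
      · intro h
        exact this ⟨hne, Or.inr h⟩
    have hkey2 : ∀ x ∈ Cl j, ∀ x' ∈ Cl j, x' ≠ x → x'.1 ≠ x.1 ∧ ¬ G.Adj x'.1 x.1 := by
      intro x hx x' hx' hne
      rcases le_total (col x) (col x') with h | h
      · exact hkey x hx x' hx' h hne
      · obtain ⟨h3, h4⟩ := hkey x' hx' x hx h hne.symm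
        exact ⟨h3.symm, fun h5 => h4 h5.symm⟩
    have hnotu : ∀ x ∈ Cl j, ¬ G.Adj x.1 (u (j + 1)) := by
      intro x hx hadj
      obtain ⟨h1, h2⟩ := hmemCl x hx
      have hR := hA (col x) (hcol1 x h1)
      obtain ⟨⟨W, p, hne, hch, hnd, hDW, hlast, hhead, hqp, hlen, -⟩, hw⟩ :=
        hcl (col x) (hcol1 x h1) x h1 (hR.rel x (hcol2 x h1)) (hR.fresh x (hcol2 x h1))
      refine forbid S W hne hch hnd hDW (p : ZMod b) hhead ?_ (by omega)
      intro z hz
      rw [hlast] at hz
      have hz' : z = x.1 := by simpa using hz.symm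
      rw [hz']
      have hcast : ((p : ℕ) : ZMod b) + ((W.length : ℕ) : ZMod b) = j + 1 := by
        rw [← Nat.cast_add, ← h2]
        have : p + W.length = col x + 1 := by omega
        rw [this]
        push_cast
        rfl
      rw [hcast]
      exact hadj
    have hinjOn : Set.InjOn Prod.fst (Cl j : Set (V × ZMod b)) := by
      intro x hx x' hx' h
      by_contra hne
      exact (hkey2 x hx x' hx' (fun h' => hne h'.symm)).1 h.symm
    set I : Finset V := insert (u (j + 1)) ((Cl j).image Prod.fst) with hI
    have hnotin : u (j + 1) ∉ (Cl j).image Prod.fst := by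
      intro h
      obtain ⟨x, hx, hxe⟩ := Finset.mem_image.1 h
      exact S.disj x.1 (mem_Inc.1 (hmemCl x hx).1).1 (j + 1) hxe
    have hIcard : I.card = (Cl j).card + 1 := by
      rw [hI, Finset.card_insert_of_notMem hnotin, Finset.card_image_of_injOn hinjOn]
    rw [← hIcard]
    apply hα
    · intro y hy
      rcases Finset.mem_insert.1 hy with rfl | hy
      · exact Or.inr ⟨_, rfl⟩
      · obtain ⟨x, hx, rfl⟩ := Finset.mem_image.1 hy
        exact Or.inl (mem_Inc.1 (hmemCl x hx).1).1
    · intro c hc e he hne
      simp only [hI, Finset.coe_insert, Finset.coe_image, Set.mem_insert_iff, Set.mem_image,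
        Finset.mem_coe] at hc he
      rcases hc with rfl | ⟨x, hx, rfl⟩ <;> rcases he with rfl | ⟨x', hx', rfl⟩
      · exact absurd rfl hne
      · intro h
        exact hnotu x' hx' h.symm
      · exact hnotu x hx
      · have hxx : x ≠ x' := by
          rintro rfl
          exact hne rfl
        exact (hkey2 x' hx' x hx hxx).2
  calc ∑ q : ZMod b, (RR G u D q).card + b
      = ∑ j : ZMod b, (Cl j).card + b := by rw [← hcardRR, hcardInc]
    _ = ∑ j : ZMod b, ((Cl j).card + 1) := by
        rw [Finset.sum_add_distrib]
        simp [ZMod.card]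
    _ ≤ ∑ _j : ZMod b, a := Finset.sum_le_sum (fun j _ => hclass j)
    _ = a * b := by
        simp [ZMod.card, mul_comm]

end main

end Vale.Agent.Lib.P048H
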